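import Vale.Agent.P097.H161.SecG.Main
import Vale.Agent.P097.H158.SecPF

/-! # P097 / H161: row SecG, literal -/

namespace Vale.Agent.P097.H161.SecG

theorem secG : Vale.Agent.P097.SC.SecG := secG_of Vale.Agent.P097.H158.secP

end Vale.Agent.P097.H161.SecG
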