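import Vale.Agent.P097.H161.SecG.Quo
import Vale.Agent.P097.H128.Sector.Defs2

/-! # P097 / H161: row SecG (meromorphic end at every top point) -/

set_option linter.all false

open Complex Metric Set Filter Topology

namespace Vale.Agent.P097.H161.SecG

open Vale.Agent.P097.SC Vale.Agent.P097.H456.Fct

theorem exists_idx (y u : ℝ) (hu : u ≠ 0) :
    ∃ (n : ℤ) (i : ℕ), |y - i * u - n| < |u| ∧ i * |u| ≤ 1 := by
  have key : ∀ y u : ℝ, 0 < u → ∃ (n : ℤ) (i : ℕ), |y - i * u - n| < |u| ∧ i * |u| ≤ 1 := by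
    intro y u hu
    have h0 : 0 ≤ Int.fract y / u := div_nonneg (Int.fract_nonneg y) hu.le
    have h1 := Nat.floor_le h0
    have h2 := Nat.lt_floor_add_one (Int.fract y / u)
    rw [le_div_iff₀ hu] at h1
    rw [div_lt_iff₀ hu] at h2
    have h3 := Int.fract_lt_one y
    have h4 : Int.fract y = y - ⌊y⌋ := rfl
    refine ⟨⌊y⌋, ⌊Int.fract y / u⌋₊, ?_, ?_⟩
    · rw [abs_of_pos hu, abs_lt]
      constructor <;> linarith
    · rw [abs_of_pos hu]; linarith
  rcases lt_or_gt_of_ne hu with h | h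
  · obtain ⟨n, i, h1, h2⟩ := key (-y) (-u) (by linarith)
    refine ⟨-n, i, ?_, by rwa [abs_neg] at h2⟩
    rw [abs_neg] at h1
    rw [← abs_neg]
    push_cast
    have : -(y - i * u - -(n : ℝ)) = -y - i * -u - n := by ring
    rwa [this]
  · exact key y u h

theorem geo {a b β σ x v : ℝ} (hσ : 0 < σ) (h8 : σ ≤ b / 8) (h4 : σ ≤ β / 4)
    (h64 : 64 * b * σ ≤ β ^ 2) (hβ : 0 < β) {t z : ℂ} {n : ℤ}
    (ht : ‖t - ((x : ℂ) + ((b - b / 2 : ℝ) : ℂ) * I)‖ < b / 2 + σ) (him : |z.im - t.im| < 2 * σ)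
    (hre : |z.re - a - n| ≤ |t.re - x| + v) (hv : v ≤ β / 2) : z ∈ Om a b β σ := by
  set s := t - ((x : ℂ) + ((b - b / 2 : ℝ) : ℂ) * I) with hs
  have hsre : s.re = t.re - x := by simp [hs]
  have hsim : s.im = t.im - b / 2 := by simp [hs]; ring
  have h1 : |s.im| < b / 2 + σ := (Complex.abs_im_le_norm s).trans_lt ht
  rw [hsim, abs_lt] at h1
  rw [abs_lt] at him
  have h2 : -(3 * σ) < z.im := by linarith [h1.1, him.1]
  have h3 : z.im < b + 3 * σ := by linarith [h1.2, him.2]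
  by_cases h5 : z.im < b - σ
  · left
    show |z.im| < b - σ
    rw [abs_lt]
    constructor <;> linarith
  · right
    push Not at h5
    refine ⟨by linarith, by linarith, n, ?_⟩
    refine hre.trans_lt ?_
    have h6 : b / 2 - 3 * σ < s.im := by rw [hsim]; linarith [him.2]
    have h7 : ‖s‖ ^ 2 = s.re ^ 2 + s.im ^ 2 := by
      rw [← Complex.normSq_eq_norm_sq, Complex.normSq_apply]; ring
    have h9 : ‖s‖ ^ 2 < (b / 2 + σ) ^ 2 := by
      have := norm_nonneg s
      nlinarith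
    have h10 : (b / 2 - 3 * σ) ^ 2 < s.im ^ 2 := by nlinarith
    have h11 : s.re ^ 2 < (β / 4) ^ 2 := by nlinarith
    have h12 : |s.re| < β / 4 := abs_lt_of_sq_lt_sq h11 (by linarith)
    rw [hsre] at h12
    linarith

theorem geo2 {a b β σ x k ε : ℝ} (hσ : 0 < σ) (h8 : σ ≤ b / 8) (h4 : σ ≤ β / 4)
    (h64 : 64 * b * σ ≤ β ^ 2) (hβ : 0 < β) {t w w₁ : ℂ} {n : ℤ}
    (hk : |k| * |w₁.re| ≤ 1) (hc : |w₁.im| ≤ σ * |w₁.re|) (hkn : |x - a - k * w₁.re - n| < |w₁.re|)
    (hw : ‖w - w₁‖ < ε) (hε : |k| * ε < σ) (hu : |w₁.re| ≤ β / 4)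
    (ht : ‖t - ((x : ℂ) + ((b - b / 2 : ℝ) : ℂ) * I)‖ < b / 2 + σ) :
    t - (k : ℂ) * w ∈ Om a b β σ := by
  have hre : (t - (k : ℂ) * w).re = t.re - k * w.re := by
    simp
  have him : (t - (k : ℂ) * w).im = t.im - k * w.im := by
    simp
  have hwr : |w.re - w₁.re| ≤ ‖w - w₁‖ := by
    have := Complex.abs_re_le_norm (w - w₁)
    rwa [Complex.sub_re] at this
  have hwi : |w.im - w₁.im| ≤ ‖w - w₁‖ := by
    have := Complex.abs_im_le_norm (w - w₁)
    rwa [Complex.sub_im] at this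
  have hkε : |k| * ‖w - w₁‖ < σ :=
    (mul_le_mul_of_nonneg_left hw.le (abs_nonneg k)).trans_lt hε
  refine geo hσ h8 h4 h64 hβ (n := n) (v := |w₁.re| + σ) ht ?_ ?_ (by linarith)
  · rw [him]
    have e : t.im - k * w.im - t.im = -(k * w₁.im + k * (w.im - w₁.im)) := by ring
    rw [e, abs_neg]
    refine (abs_add_le _ _).trans_lt ?_
    rw [abs_mul, abs_mul]
    have h1 : |k| * |w₁.im| ≤ σ := by
      calc |k| * |w₁.im| ≤ |k| * (σ * |w₁.re|) := mul_le_mul_of_nonneg_left hc (abs_nonneg k)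
        _ = σ * (|k| * |w₁.re|) := by ring
        _ ≤ σ * 1 := mul_le_mul_of_nonneg_left hk hσ.le
        _ = σ := mul_one σ
    have h2 : |k| * |w.im - w₁.im| ≤ |k| * ‖w - w₁‖ := mul_le_mul_of_nonneg_left hwi (abs_nonneg k)
    linarith
  · rw [hre]
    have e : t.re - k * w.re - a - n = (t.re - x) + ((x - a - k * w₁.re - n) + -(k * (w.re - w₁.re))) := by
      ring
    rw [e]
    refine (abs_add_le _ _).trans ?_
    have h3 := abs_add_le (x - a - k * w₁.re - n) (-(k * (w.re - w₁.re)))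
    rw [abs_neg, abs_mul] at h3
    have h2 : |k| * |w.re - w₁.re| ≤ |k| * ‖w - w₁‖ := mul_le_mul_of_nonneg_left hwr (abs_nonneg k)
    linarith

theorem convC (b σ r₁ : ℝ) (k k' : ℂ) :
    Convex ℝ {u : ℂ × ℂ | ‖u.2‖ < r₁ ∧ |u.1.im| < b - σ ∧ |(u.1 + k * u.2).im| < b - σ ∧
      |(u.1 + k' * u.2).im| < b - σ} := by
  have h1 : ∀ k : ℂ, Convex ℝ {u : ℂ × ℂ | |(u.1 + k * u.2).im| < b - σ} := by
    intro k u hu v hv p q hp hq hpq
    have hu' : |(u.1 + k * u.2).im| < b - σ := hu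
    have hv' : |(v.1 + k * v.2).im| < b - σ := hv
    rw [abs_lt] at hu' hv'
    show |((p • u + q • v).1 + k * (p • u + q • v).2).im| < b - σ
    rw [abs_lt]
    have h2 := (convex_Ioo (-(b - σ)) (b - σ)) ⟨hu'.1, hu'.2⟩ ⟨hv'.1, hv'.2⟩ hp hq hpq
    have e : ((p • u + q • v).1 + k * (p • u + q • v).2).im =
        p • (u.1 + k * u.2).im + q • (v.1 + k * v.2).im := by
      simp only [Prod.fst_add, Prod.snd_add, Prod.smul_fst, Prod.smul_snd, Complex.add_im,
        Complex.mul_im, Complex.add_re, Complex.smul_im, Complex.smul_re, smul_eq_mul]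
      ring
    rw [e]
    exact ⟨h2.1, h2.2⟩
  have h2 : Convex ℝ {u : ℂ × ℂ | ‖u.2‖ < r₁} := by
    have h3 : {u : ℂ × ℂ | ‖u.2‖ < r₁} = (LinearMap.snd ℝ ℂ ℂ) ⁻¹' ball 0 r₁ := by
      ext u
      simp
    rw [h3]
    exact (convex_ball (0 : ℂ) r₁).linear_preimage (LinearMap.snd ℝ ℂ ℂ)
  have h3 : Convex ℝ {u : ℂ × ℂ | |u.1.im| < b - σ} := by
    have := h1 0
    simpa using this
  have := h2.inter (h3.inter ((h1 k).inter (h1 k')))
  exact this

/-- **SEC-G** from SEC-P -/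
theorem secG_of (hSP : SecP) : SecG := by
  intro a b β f hβ hβ1 hb hyp x
  set σ := min (b / 8) (min (β / 4) (β ^ 2 / (64 * b))) with hσdef
  have hσ : 0 < σ := by positivity
  have h8 : σ ≤ b / 8 := min_le_left _ _
  have h4 : σ ≤ β / 4 := (min_le_right _ _).trans (min_le_left _ _)
  have h64 : 64 * b * σ ≤ β ^ 2 := by
    have h1 : σ ≤ β ^ 2 / (64 * b) := (min_le_right _ _).trans (min_le_right _ _)
    rw [le_div_iff₀ (by positivity)] at h1
    linarith
  have hσb : σ < b := by linarith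
  choose! rr hrr using hyp
  set t₁ : ℂ := (x : ℂ) + ((b - b / 2 : ℝ) : ℂ) * I with ht₁
  have ht₁im : t₁.im = b / 2 := by simp [ht₁]; ring
  -- the joint domain
  set Ω : Set (ℂ × ℂ) := {u | ∃ δ, 0 < δ ∧ δ < b ∧ |u.1.im| < b - δ ∧ ‖u.2‖ < rr δ} with hΩ
  have hΩo : IsOpen Ω := by
    rw [isOpen_iff_mem_nhds]
    rintro u ⟨δ, hδ, hδb, h1, h2⟩
    have h3 : IsOpen {u : ℂ × ℂ | |u.1.im| < b - δ ∧ ‖u.2‖ < rr δ} := by
      refine IsOpen.and (isOpen_lt ?_ continuous_const) (isOpen_lt ?_ continuous_const)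
      · exact (Complex.continuous_im.comp continuous_fst).abs
      · exact continuous_snd.norm
    exact mem_of_superset (h3.mem_nhds ⟨h1, h2⟩) fun v hv => ⟨δ, hδ, hδb, hv.1, hv.2⟩
  have hfΩ : DifferentiableOn ℂ f Ω := by
    rintro u ⟨δ, hδ, hδb, h1, h2⟩
    exact ((hrr δ hδ hδb).2.1 u ⟨Or.inl h1, mem_ball_zero_iff.2 h2⟩).differentiableAt.differentiableWithinAt
  set r₁ := rr σ with hr₁
  have hr₁0 : 0 < r₁ := (hrr σ hσ hσb).1
  have hfan : AnalyticOnNhd ℂ f (Om a b β σ ×ˢ ball 0 r₁) := (hrr σ hσ hσb).2.1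
  obtain ⟨R', hR', q, F, hq, hF, hFq⟩ := Vale.Agent.P097.H161.Mero.mj2 (f := f) (Ω := Ω) hΩo hfΩ
    (t₁ := t₁) (R := b / 2) (ρ := σ) (c := σ) (r₀ := min (r₁ / 2) (β / 4)) (by positivity) hσ hσ
    (by positivity)
    (by
      intro η hη
      refine ⟨rr (min η (b / 2)), (hrr _ (by positivity) ((min_le_right _ _).trans_lt (by linarith))).1,
        fun t w ht hw => ⟨min η (b / 2), by positivity, (min_le_right _ _).trans_lt (by linarith), ?_, hw⟩⟩
      have h1 : |(t - t₁).im| < b / 2 - η := (Complex.abs_im_le_norm _).trans_lt ht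
      rw [Complex.sub_im, ht₁im, abs_lt] at h1
      have h2 : min η (b / 2) ≤ η := min_le_left _ _
      have h3 : min η (b / 2) ≤ b / 2 := min_le_right _ _
      show |t.im| < b - min η (b / 2)
      rw [abs_lt]
      constructor <;> linarith)
    (by
      intro w₁ hw0 hwr hwc
      have hu0 : 0 < |w₁.re| := by
        by_contra hcon
        push Not at hcon
        have h3 : w₁.re = 0 := abs_nonpos_iff.1 hcon
        rw [h3, abs_zero, mul_zero] at hwc
        exact absurd hwc (not_lt.2 (abs_nonneg _))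
      have hu : w₁.re ≠ 0 := abs_pos.1 hu0
      have huβ : |w₁.re| ≤ β / 4 := (Complex.abs_re_le_norm _).trans (hwr.le.trans (min_le_right _ _))
      have hw₁r : ‖w₁‖ < r₁ / 2 := hwr.trans_le (min_le_left _ _)
      obtain ⟨n₁, i, hi, hi1⟩ := exists_idx (x - a) w₁.re hu
      obtain ⟨n₂, j, hj, hj1⟩ := exists_idx (x - a) (-w₁.re) (neg_ne_zero.2 hu)
      rw [abs_neg] at hj hj1
      set ε := min (r₁ / 2) (σ / (2 * (i + j + 1))) with hε
      have hε0 : 0 < ε := by positivity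
      have hεr : ε ≤ r₁ / 2 := min_le_left _ _
      have hεσ : ((i : ℝ) + j + 1) * ε ≤ σ / 2 := by
        have h1 : ε ≤ σ / (2 * (i + j + 1)) := min_le_right _ _
        rw [le_div_iff₀ (by positivity)] at h1
        linarith
      have hi0 : (0 : ℝ) ≤ i := Nat.cast_nonneg i
      have hj0 : (0 : ℝ) ≤ j := Nat.cast_nonneg j
      have hmi : ∀ t w : ℂ, ‖t - t₁‖ < b / 2 + σ → ‖w - w₁‖ < ε → t - i * w ∈ Om a b β σ := by
        intro t w ht hw
        have h1 := geo2 (a := a) (k := i) (n := n₁) (ε := ε) hσ h8 h4 h64 hβ (t := t) (w := w) (w₁ := w₁)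
          (x := x) (by rwa [Nat.abs_cast]) hwc.le hi hw (by rw [Nat.abs_cast]; nlinarith) huβ ht
        simpa using h1
      have hmj : ∀ t w : ℂ, ‖t - t₁‖ < b / 2 + σ → ‖w - w₁‖ < ε → t + j * w ∈ Om a b β σ := by
        intro t w ht hw
        have h1 := geo2 (a := a) (k := -j) (n := n₂) (ε := ε) hσ h8 h4 h64 hβ (t := t) (w := w) (w₁ := w₁)
          (x := x) (by rwa [abs_neg, Nat.abs_cast]) hwc.le (by
            have e : x - a - -(j : ℝ) * w₁.re - n₂ = x - a - j * -w₁.re - n₂ := by ring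
            rwa [e]) hw (by rw [abs_neg, Nat.abs_cast]; nlinarith) huβ ht
        simpa using h1
      obtain ⟨F, G, ⟨hFa, -⟩, ⟨hGa, -⟩, ⟨v, hv, hGv⟩, hid⟩ := (hrr σ hσ hσb).2.2 (i + j) i (by omega)
      set ψ : ℂ × ℂ → ℂ × ℂ := fun u => (u.1 - i * u.2, u.2) with hψ
      set ψ' : ℂ × ℂ → ℂ × ℂ := fun u => (u.1 + i * u.2, u.2) with hψ'
      have hψa : ∀ u, AnalyticAt ℂ ψ u := fun u =>
        (analyticAt_fst.sub (analyticAt_const.mul analyticAt_snd)).prod analyticAt_snd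
      have hψ'a : ∀ u, AnalyticAt ℂ ψ' u := fun u =>
        (analyticAt_fst.add (analyticAt_const.mul analyticAt_snd)).prod analyticAt_snd
      have hψψ' : ∀ u, ψ (ψ' u) = u := by intro u; simp [hψ, hψ']
      have hψ'ψ : ∀ u, ψ' (ψ u) = u := by intro u; simp [hψ, hψ']
      have hOm : ∀ u ∈ ball t₁ (b / 2 + σ) ×ˢ ball w₁ ε, ψ u ∈ OmS a b β σ r₁ {0, i + j} := by
        rintro ⟨t, w⟩ ⟨ht, hw⟩
        rw [mem_ball, dist_eq_norm] at ht hw
        refine ⟨?_, ?_⟩
        · show ‖w‖ < r₁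
          calc ‖w‖ = ‖(w - w₁) + w₁‖ := by rw [sub_add_cancel]
            _ ≤ ‖w - w₁‖ + ‖w₁‖ := norm_add_le _ _
            _ < r₁ := by linarith
        · intro l hl
          rcases hl with hl | hl
          · rw [hl]
            have := hmi t w ht hw
            simpa [hψ] using this
          · have hl' : l = i + j := hl
            rw [hl']
            have h1 := hmj t w ht hw
            have e : (ψ (t, w)).1 + ((i + j : ℕ) : ℂ) * (ψ (t, w)).2 = t + j * w := by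
              simp only [hψ]
              push_cast
              ring
            rw [e]
            exact h1
      have hcen : (t₁, w₁) ∈ ball t₁ (b / 2 + σ) ×ˢ ball w₁ ε :=
        ⟨mem_ball_self (by linarith), mem_ball_self hε0⟩
      -- the identity near the centre
      set C : Set (ℂ × ℂ) := {u : ℂ × ℂ | ‖u.2‖ < r₁ ∧ |u.1.im| < b - σ ∧
        |(u.1 + (i : ℂ) * u.2).im| < b - σ ∧ |(u.1 + ((i + j : ℕ) : ℂ) * u.2).im| < b - σ} with hC
      have hCo : IsOpen C := by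
        refine IsOpen.and (isOpen_lt ?_ continuous_const) (IsOpen.and (isOpen_lt ?_ continuous_const)
          (IsOpen.and (isOpen_lt ?_ continuous_const) (isOpen_lt ?_ continuous_const))) <;>
        fun_prop
      have hCsub : C ⊆ OmS a b β σ r₁ {0, i + j} := by
        rintro u ⟨h1, h2, h3, h5⟩
        refine ⟨h1, ?_⟩
        intro l hl
        rcases hl with hl | hl
        · rw [hl]
          left
          simpa using h2
        · have hl' : l = i + j := hl
          rw [hl']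
          exact Or.inl h5
      have hC0 : ((0 : ℂ), (0 : ℂ)) ∈ C := by
        refine ⟨by simpa using hr₁0, ?_, ?_, ?_⟩ <;> simpa using hσb
      have hid2 : ∀ u ∈ C, G u * f (ψ' u) = F u := by
        have a1 : AnalyticOnNhd ℂ (fun u => G u * f (ψ' u)) C := by
          intro u hu
          refine (hGa u (hCsub hu)).mul ?_
          refine (hfan (ψ' u) ⟨Or.inl hu.2.2.1, mem_ball_zero_iff.2 hu.1⟩).comp (hψ'a u)
        have a2 : AnalyticOnNhd ℂ F C := fun u hu => hFa u (hCsub hu)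
        refine a1.eqOn_of_preconnected_of_eventuallyEq a2 (convC b σ r₁ _ _).isPreconnected hC0 ?_
        have h5 := hid 0
        rw [Complex.ofReal_zero] at h5
        exact h5
      have him : ∀ k : ℝ, 0 ≤ k → k * |w₁.re| ≤ 1 → |(k * w₁.im)| ≤ σ := by
        intro k hk hk1
        rw [abs_mul, abs_of_nonneg hk]
        calc k * |w₁.im| ≤ k * (σ * |w₁.re|) := mul_le_mul_of_nonneg_left hwc.le hk
          _ = σ * (k * |w₁.re|) := by ring
          _ ≤ σ * 1 := mul_le_mul_of_nonneg_left hk1 hσ.le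
          _ = σ := mul_one σ
      have hcenC : ψ (t₁, w₁) ∈ C := by
        have hii := him i hi0 hi1
        have hjj := him j hj0 hj1
        rw [abs_le] at hii hjj
        refine ⟨?_, ?_, ?_, ?_⟩
        · show ‖w₁‖ < r₁
          linarith
        · show |(t₁ - (i : ℂ) * w₁).im| < b - σ
          have e : (t₁ - (i : ℂ) * w₁).im = b / 2 - i * w₁.im := by
            rw [Complex.sub_im, ht₁im]; simp
          rw [e, abs_lt]
          constructor <;> linarith [hii.1, hii.2]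
        · show |(t₁ - (i : ℂ) * w₁ + (i : ℂ) * w₁).im| < b - σ
          rw [sub_add_cancel, ht₁im, abs_of_pos (by linarith)]
          linarith
        · show |(t₁ - (i : ℂ) * w₁ + ((i + j : ℕ) : ℂ) * w₁).im| < b - σ
          have e : (t₁ - (i : ℂ) * w₁ + ((i + j : ℕ) : ℂ) * w₁).im = b / 2 + j * w₁.im := by
            have e1 : t₁ - (i : ℂ) * w₁ + ((i + j : ℕ) : ℂ) * w₁ = t₁ + (j : ℂ) * w₁ := by
              push_cast; ring
            rw [e1, Complex.add_im, ht₁im]; simp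
          rw [e, abs_lt]
          constructor <;> linarith [hjj.1, hjj.2]
      have htend : Tendsto ψ (𝓝 (t₁, w₁)) (𝓝 (ψ (t₁, w₁))) := (hψa _).continuousAt
      have hidc : ∀ᶠ u in 𝓝 (t₁, w₁), (G ∘ ψ) u * f u = (F ∘ ψ) u := by
        filter_upwards [htend.eventually (hCo.mem_nhds hcenC)] with u hu
        have h1 := hid2 _ hu
        rwa [hψ'ψ] at h1
      have hG0 : ¬ ∀ᶠ u in 𝓝 (t₁, w₁), (G ∘ ψ) u = 0 := by
        intro h
        have h1 : Tendsto ψ' (𝓝 (ψ (t₁, w₁))) (𝓝 (t₁, w₁)) := by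
          have := (hψ'a (ψ (t₁, w₁))).continuousAt
          rwa [ContinuousAt, hψ'ψ] at this
        have h2 : ∀ᶠ u in 𝓝 (ψ (t₁, w₁)), G u = 0 := by
          filter_upwards [h1.eventually h] with u hu
          rwa [Function.comp_apply, hψψ'] at hu
        exact hGv (hGa.eqOn_zero_of_preconnected_of_eventuallyEq_zero
          (hSP a b β σ r₁ {0, i + j} hβ hσ hσb hr₁0) (hCsub hcenC) h2 hv)
      have hfc : AnalyticAt ℂ f (t₁, w₁) := by
        refine hfan (t₁, w₁) ⟨Or.inl ?_, mem_ball_zero_iff.2 (by linarith)⟩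
        show |t₁.im| < b - σ
        rw [ht₁im, abs_of_pos (by linarith)]
        linarith
      obtain ⟨P, Q, hP, hQ, hQ0, hPQ⟩ := loc_quo (S := b / 2 + σ) (by linarith) hε0
        (F := F ∘ ψ) (G := G ∘ ψ) (f := f) (t₁ := t₁) (w₁ := w₁)
        (fun u hu => (hFa _ (hOm u hu)).comp (hψa u)) (fun u hu => (hGa _ (hOm u hu)).comp (hψa u))
        hfc hidc hG0
      obtain ⟨δ', hδ', hδ2⟩ := Metric.eventually_nhds_iff.1 hPQ
      have hsub : ball t₁ (b / 2 + σ) ×ˢ ball w₁ (min ε δ') ⊆ ball t₁ (b / 2 + σ) ×ˢ ball w₁ ε :=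
        prod_mono_right (ball_subset_ball (min_le_left _ _))
      refine ⟨min ε δ', lt_min hε0 hδ', P, Q, hP.mono hsub, hQ.mono hsub, hQ0, δ', hδ', ?_⟩
      intro t ht w hw _
      refine hδ2 ?_
      rw [Prod.dist_eq, max_lt_iff]
      exact ⟨ht, (mem_ball.1 hw).trans_le (min_le_right _ _)⟩)
  exact ⟨b / 2, R', q, F, by linarith, by linarith, hR', hq, hF, hFq⟩

end Vale.Agent.P097.H161.SecG
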