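import Vale.Agent.P097.H161.Mero.MJ2
import Vale.Agent.P097.H835.Var
import Vale.Agent.P097.H835.Ord

/-! # P097 / H161: local quotients with a denominator which does not vanish on the central slice -/

set_option linter.all false

open Complex Metric Set Filter Topology

namespace Vale.Agent.P097.H161.SecG

theorem cancel_snd {h : ℂ × ℂ → ℂ} {t₁ : ℂ} (ha : AnalyticAt ℂ h (t₁, 0))
    (h0 : ∀ᶠ u in 𝓝 (t₁, (0 : ℂ)), u.2 * h u = 0) : ∀ᶠ u in 𝓝 (t₁, (0 : ℂ)), h u = 0 := by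
  filter_upwards [ha.eventually_analyticAt, h0.eventually_nhds] with u hu hu0
  have hc : Tendsto (fun s : ℂ => h (u.1, u.2 + s)) (𝓝[≠] 0) (𝓝 (h u)) := by
    have h1 : ContinuousAt (fun s : ℂ => h (u.1, u.2 + s)) 0 := by
      refine ContinuousAt.comp (g := h) (f := fun s : ℂ => (u.1, u.2 + s)) ?_ (by fun_prop)
      simpa using hu.continuousAt
    have h2 := h1.tendsto.mono_left (nhdsWithin_le_nhds (s := {0}ᶜ))
    simpa using h2
  have h3 : Tendsto (fun s : ℂ => (u.1, u.2 + s)) (𝓝[≠] 0) (𝓝 u) := by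
    have h4 : ContinuousAt (fun s : ℂ => (u.1, u.2 + s)) 0 := by fun_prop
    have h5 := h4.tendsto.mono_left (nhdsWithin_le_nhds (s := {0}ᶜ))
    simpa using h5
  have h6 : ∀ᶠ s in 𝓝[≠] (0 : ℂ), h (u.1, u.2 + s) = 0 := by
    have h7 : ∀ᶠ s in 𝓝[≠] (0 : ℂ), u.2 + s ≠ 0 := by
      by_cases hu2 : u.2 = 0
      · filter_upwards [self_mem_nhdsWithin] with s hs
        rw [hu2, zero_add]; exact hs
      · have h8 : ∀ᶠ s in 𝓝 (0 : ℂ), u.2 + s ≠ 0 := by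
          have h9 : ContinuousAt (fun s : ℂ => u.2 + s) 0 := by fun_prop
          exact h9.eventually_ne (by simpa using hu2)
        exact h8.filter_mono nhdsWithin_le_nhds
    filter_upwards [h3.eventually hu0, h7] with s h8 h9
    exact (mul_eq_zero.1 h8).resolve_left h9
  exact tendsto_nhds_unique hc ((tendsto_congr' h6).2 tendsto_const_nhds)

theorem div_pow {t₁ : ℂ} {S ε : ℝ} (hS : 0 < S) (hε : 0 < ε) (M : ℕ) : ∀ {F g : ℂ × ℂ → ℂ},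
    AnalyticOnNhd ℂ F (ball t₁ S ×ˢ ball 0 ε) → AnalyticAt ℂ g (t₁, 0) →
    (∀ᶠ u in 𝓝 (t₁, (0 : ℂ)), F u = u.2 ^ M * g u) →
    ∃ F' : ℂ × ℂ → ℂ, AnalyticOnNhd ℂ F' (ball t₁ S ×ˢ ball 0 ε) ∧
      ∀ᶠ u in 𝓝 (t₁, (0 : ℂ)), F' u = g u := by
  induction M with
  | zero =>
    intro F g hF hg h
    exact ⟨F, hF, by filter_upwards [h] with u hu; rw [hu, pow_zero, one_mul]⟩
  | succ M ih =>
    intro F g hF hg h
    have h0 : ∀ x ∈ ball t₁ S, F (x, 0) = 0 := by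
      have e1 : AnalyticOnNhd ℂ (fun x => F (x, 0)) (ball t₁ S) := by
        intro x hx
        refine (hF (x, 0) ⟨hx, mem_ball_self hε⟩).comp_of_eq
          (analyticAt_id.prod analyticAt_const) rfl
      have e2 : ∀ᶠ x in 𝓝 t₁, F (x, 0) = 0 := by
        have h1 : Tendsto (fun x : ℂ => (x, (0 : ℂ))) (𝓝 t₁) (𝓝 (t₁, 0)) := by
          have : ContinuousAt (fun x : ℂ => (x, (0 : ℂ))) t₁ := by fun_prop
          exact this
        filter_upwards [h1.eventually h] with x hx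
        rw [hx]; simp
      intro x hx
      exact e1.eqOn_zero_of_preconnected_of_eventuallyEq_zero (convex_ball _ _).isPreconnected
        (mem_ball_self hS) e2 hx
    obtain ⟨F₁, hF₁, hF₁F, -⟩ := H835.Mir.div_global isOpen_ball hε hF h0
    refine ih hF₁ hg ?_
    have hmem : (t₁, (0 : ℂ)) ∈ ball t₁ S ×ˢ ball (0 : ℂ) ε := ⟨mem_ball_self hS, mem_ball_self hε⟩
    have hd : AnalyticAt ℂ (fun u : ℂ × ℂ => F₁ u - u.2 ^ M * g u) (t₁, 0) :=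
      (hF₁ _ hmem).sub ((analyticAt_snd.pow M).mul hg)
    have h2 := cancel_snd hd (by
      filter_upwards [h, (isOpen_ball.prod isOpen_ball).mem_nhds hmem] with u h3 h4
      rw [hF₁F u h4] at h3
      have : u.2 * (F₁ u - u.2 ^ M * g u) = u.2 * F₁ u - u.2 ^ (M + 1) * g u := by ring
      rw [this, h3, sub_self])
    filter_upwards [h2] with u hu
    exact sub_eq_zero.1 hu

/-- local quotients -/
theorem loc_quo {t₁ w₁ : ℂ} {S ε : ℝ} (hS : 0 < S) (hε : 0 < ε) {F G f : ℂ × ℂ → ℂ}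
    (hF : AnalyticOnNhd ℂ F (ball t₁ S ×ˢ ball w₁ ε)) (hG : AnalyticOnNhd ℂ G (ball t₁ S ×ˢ ball w₁ ε))
    (hf : AnalyticAt ℂ f (t₁, w₁)) (hGf : ∀ᶠ u in 𝓝 (t₁, w₁), G u * f u = F u)
    (hG0 : ¬ ∀ᶠ u in 𝓝 (t₁, w₁), G u = 0) :
    ∃ P Q : ℂ × ℂ → ℂ, DifferentiableOn ℂ P (ball t₁ S ×ˢ ball w₁ ε) ∧
      DifferentiableOn ℂ Q (ball t₁ S ×ˢ ball w₁ ε) ∧ (∃ t ∈ ball t₁ S, Q (t, w₁) ≠ 0) ∧
      ∀ᶠ u in 𝓝 (t₁, w₁), Q u * f u = P u := by
  -- translation in `w`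
  set τ : ℂ × ℂ → ℂ × ℂ := fun u => (u.1, w₁ + u.2) with hτ
  set τ' : ℂ × ℂ → ℂ × ℂ := fun u => (u.1, u.2 - w₁) with hτ'
  have hτa : ∀ u, AnalyticAt ℂ τ u := fun u => analyticAt_fst.prod (analyticAt_const.add analyticAt_snd)
  have hτ'a : ∀ u, AnalyticAt ℂ τ' u := fun u => analyticAt_fst.prod (analyticAt_snd.sub analyticAt_const)
  have hτ0 : τ (t₁, 0) = (t₁, w₁) := by simp [hτ]
  have hτ'0 : τ' (t₁, w₁) = (t₁, 0) := by simp [hτ']
  have hττ' : ∀ u, τ (τ' u) = u := by intro u; simp [hτ, hτ']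
  have hmap : ∀ u ∈ ball t₁ S ×ˢ ball (0 : ℂ) ε, τ u ∈ ball t₁ S ×ˢ ball w₁ ε := by
    rintro ⟨x, s⟩ ⟨hx, hs⟩
    refine ⟨hx, ?_⟩
    rw [mem_ball_zero_iff] at hs
    show w₁ + s ∈ ball w₁ ε
    rwa [mem_ball, dist_eq_norm, add_sub_cancel_left]
  have hmap' : ∀ u ∈ ball t₁ S ×ˢ ball w₁ ε, τ' u ∈ ball t₁ S ×ˢ ball (0 : ℂ) ε := by
    rintro ⟨x, s⟩ ⟨hx, hs⟩
    refine ⟨hx, ?_⟩
    rw [mem_ball, dist_eq_norm] at hs
    show s - w₁ ∈ ball (0 : ℂ) ε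
    rwa [mem_ball_zero_iff]
  have hF1 : AnalyticOnNhd ℂ (F ∘ τ) (ball t₁ S ×ˢ ball 0 ε) := fun u hu =>
    (hF _ (hmap u hu)).comp (hτa u)
  have hG1 : AnalyticOnNhd ℂ (G ∘ τ) (ball t₁ S ×ˢ ball 0 ε) := fun u hu =>
    (hG _ (hmap u hu)).comp (hτa u)
  have hf1 : AnalyticAt ℂ (f ∘ τ) (t₁, 0) := hf.comp_of_eq (hτa _) hτ0
  have ht : Tendsto τ (𝓝 (t₁, 0)) (𝓝 (t₁, w₁)) := by
    have := (hτa (t₁, 0)).continuousAt
    rwa [ContinuousAt, hτ0] at this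
  have ht' : Tendsto τ' (𝓝 (t₁, w₁)) (𝓝 (t₁, 0)) := by
    have := (hτ'a (t₁, w₁)).continuousAt
    rwa [ContinuousAt, hτ'0] at this
  have hGf1 : ∀ᶠ u in 𝓝 (t₁, (0 : ℂ)), (G ∘ τ) u * (f ∘ τ) u = (F ∘ τ) u := ht.eventually hGf
  have hG01 : ¬ ∀ᶠ u in 𝓝 (t₁, (0 : ℂ)), (G ∘ τ) u = 0 := by
    intro h
    apply hG0
    filter_upwards [ht'.eventually h] with u hu
    rwa [Function.comp_apply, hττ'] at hu
  have hmem : (t₁, (0 : ℂ)) ∈ ball t₁ S ×ˢ ball (0 : ℂ) ε := ⟨mem_ball_self hS, mem_ball_self hε⟩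
  obtain ⟨M, g, hg, hGg, hg0⟩ := H835.Ord.exists_ord (hG1 _ hmem) hG01
  obtain ⟨Q, hQ, hQg⟩ := div_pow hS hε M hG1 hg hGg
  obtain ⟨P, hP, hPg⟩ := div_pow hS hε M hF1 (hg.mul hf1) (by
    filter_upwards [hGf1, hGg] with u h1 h2
    rw [← h1, h2]
    simp only [Pi.mul_apply]
    ring)
  refine ⟨P ∘ τ', Q ∘ τ', ?_, ?_, ?_, ?_⟩
  · exact fun u hu => (((hP _ (hmap' u hu)).comp (hτ'a u)).differentiableAt).differentiableWithinAt
  · exact fun u hu => (((hQ _ (hmap' u hu)).comp (hτ'a u)).differentiableAt).differentiableWithinAt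
  · by_contra hcon
    push Not at hcon
    apply hg0
    have h1 : Tendsto (fun x : ℂ => (x, (0 : ℂ))) (𝓝 t₁) (𝓝 (t₁, 0)) := by
      have : ContinuousAt (fun x : ℂ => (x, (0 : ℂ))) t₁ := by fun_prop
      exact this
    filter_upwards [h1.eventually hQg, ball_mem_nhds t₁ hS] with x hx hx2
    have h2 := hcon x hx2
    have h3 : τ' (x, w₁) = (x, 0) := by simp [hτ']
    rw [Function.comp_apply, h3, hx] at h2
    exact h2
  · filter_upwards [ht'.eventually hQg, ht'.eventually hPg] with u h1 h2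
    rw [Function.comp_apply, Function.comp_apply, h1, h2, Pi.mul_apply, Function.comp_apply, hττ']

end Vale.Agent.P097.H161.SecG
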